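import Vale.Agent.P233.H276.Morrey

/-! P233, block D6: small balls of directions. Pure measure theory, from the contraction maps of the
centre `y`, the first variation at `y` (D4) and the slab estimate at `y` (D5). -/

open MeasureTheory Filter Topology Set
open scoped ENNReal NNReal

namespace Vale.Agent.P233.H276

variable {M : Type*} [MetricSpace M] [MeasurableSpace M] [BorelSpace M] {m : Measure M}

/-- First variation of `b` at `y` towards `p` (without geodesics); `w = ⟨∇b,∇d_p⟩(y)`. -/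
def FVar (b : M → ℝ) (y p : M) (w : ℝ) : Prop :=
  ∀ ε > 0, ∃ δ > 0, ∀ z, dist y z < δ → dist y z + dist z p = dist y p →
    |b z - b y + dist y z * w| ≤ ε * dist y z

/-- The slab estimate at `y` with constant `C`. -/
def Slab (m : Measure M) (b : M → ℝ) (y : M) (n C : ℝ) : Prop :=
  ∀ e > 0, ∃ s₁ > 0, ∀ s, 0 < s → s < s₁ →
    m {z | dist y z < s ∧ |b z - b y| ≤ e * s} ≤ ENNReal.ofReal (C * e * s ^ n)

/-- **D6, small balls of directions**: `m {p | |⟨∇b,∇d_p⟩(y)| < e} ≤ C e`. -/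
theorem small_balls {y : M} {b : M → ℝ} {w : M → ℝ} {R n K C e : ℝ} (hR : 0 < R) (hK : 0 ≤ K)
    (hC : 0 ≤ C) (hb : Measurable b) (he : 0 < e)
    (hY : ∀ ε > 0, ∃ s₀ : ℝ, 0 < s₀ ∧ s₀ ≤ ε ∧ ∃ Y, Contr m y s₀ R n K Y)
    (hfv : ∀ᵐ p ∂m, dist y p < R → FVar b y p (w p)) (hsl : Slab m b y n C) :
    m {p | dist y p < R ∧ |w p| < e} ≤ ENNReal.ofReal (2 * K * C * (2 * R) ^ n * e) := by
  -- the sets where the first variation is uniform
  set S : ℕ → Set M := fun k => {p | dist y p < R ∧ |w p| < e ∧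
    ∀ z, dist y z < 1 / ((k:ℝ) + 1) → dist y z + dist z p = dist y p →
      |b z - b y + dist y z * w p| ≤ e * dist y z} with hS
  have hmono : Monotone S := by
    intro k l hkl p hp
    refine ⟨hp.1, hp.2.1, fun z hz => hp.2.2 z (hz.trans_le ?_)⟩
    have : (k:ℝ) ≤ l := by exact_mod_cast hkl
    exact one_div_le_one_div_of_le (by positivity) (by linarith)
  have hcov : m {p | dist y p < R ∧ |w p| < e} ≤ m (⋃ k, S k) := by
    refine measure_mono_ae ?_
    filter_upwards [hfv] with p hp hp'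
    obtain ⟨δ, hδ, h⟩ := hp hp'.1 e he
    obtain ⟨k, hk⟩ := exists_nat_one_div_lt hδ
    exact mem_iUnion.2 ⟨k, hp'.1, hp'.2, fun z hz => h z (hz.trans hk)⟩
  refine hcov.trans ?_
  rw [hmono.measure_iUnion]
  refine iSup_le fun k => ?_
  -- contract `S k` towards `y`
  obtain ⟨s₁, hs₁, hs⟩ := hsl (2 * e) (by positivity)
  obtain ⟨s₀, h0, h1, Y, hYc⟩ := hY (min 1 (min (s₁ / (4 * R)) (1 / ((k:ℝ) + 1) / (4 * R)))) (by
    positivity)
  have a1 : s₀ ≤ 1 := h1.trans (min_le_left _ _)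
  have a2 : s₀ ≤ s₁ / (4 * R) := (h1.trans (min_le_right _ _)).trans (min_le_left _ _)
  have a3 : s₀ ≤ 1 / ((k:ℝ) + 1) / (4 * R) := (h1.trans (min_le_right _ _)).trans (min_le_right _ _)
  rw [le_div_iff₀ (by positivity)] at a2 a3
  have hk0 : (0:ℝ) < 1 / ((k:ℝ) + 1) := by positivity
  set s := 2 * s₀ * R with hsdef
  have hs0 : 0 < s := by positivity
  have hss : s < s₁ := by nlinarith
  have hsk : s < 1 / ((k:ℝ) + 1) := by nlinarith
  set A : Set M := {z | dist y z < s ∧ |b z - b y| ≤ 2 * e * s} with hA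
  have hAm : MeasurableSet A :=
    MeasurableSet.inter (measurableSet_lt (continuous_const.dist continuous_id).measurable
      measurable_const) (measurableSet_le (hb.sub_const _).abs measurable_const)
  have b1 : m (S k) ≤ m {p | dist y p < R ∧ Y s₀ p ∈ A} := by
    refine measure_mono_ae ?_
    filter_upwards [hYc.rad s₀ ⟨h0, a1⟩] with p hp hpS
    obtain ⟨p1, p2, p3⟩ := hpS
    obtain ⟨r1, r2⟩ := hp p1
    have h1s : 0 < 1 + s₀ := by linarith
    have r3 : dist y (Y s₀ p) + dist (Y s₀ p) p = dist y p := by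
      rw [r1, r2]
      field_simp
      ring
    have r4 : dist y (Y s₀ p) ≤ 2 * s₀ * dist y p := by
      rw [r1]
      have : (s₀ + s₀) / (1 + s₀) ≤ 2 * s₀ := by
        rw [div_le_iff₀ h1s]
        nlinarith
      exact mul_le_mul_of_nonneg_right this dist_nonneg
    have r5 : dist y (Y s₀ p) < s := by
      refine r4.trans_lt ?_
      rw [hsdef]
      exact mul_lt_mul_of_pos_left p1 (by positivity)
    have r6 := p3 (Y s₀ p) (r5.trans hsk) r3
    refine ⟨p1, r5, ?_⟩
    have d0 : 0 ≤ dist y (Y s₀ p) := dist_nonneg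
    have r7 : |b (Y s₀ p) - b y| ≤ |b (Y s₀ p) - b y + dist y (Y s₀ p) * w p| +
        |dist y (Y s₀ p) * w p| := by
      have : b (Y s₀ p) - b y = (b (Y s₀ p) - b y + dist y (Y s₀ p) * w p) -
        dist y (Y s₀ p) * w p := by ring
      calc |b (Y s₀ p) - b y| = |(b (Y s₀ p) - b y + dist y (Y s₀ p) * w p) -
        dist y (Y s₀ p) * w p| := by rw [← this]
        _ ≤ _ := abs_sub _ _
    have r8 : |dist y (Y s₀ p) * w p| ≤ dist y (Y s₀ p) * e := by
      rw [abs_mul, abs_of_nonneg d0]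
      gcongr
    nlinarith
  have b2 := hYc.dens s₀ ⟨h0, a1⟩ A hAm
  refine b1.trans (b2.trans ?_)
  calc ENNReal.ofReal (K * s₀ ^ (-n)) * m A
      ≤ ENNReal.ofReal (K * s₀ ^ (-n)) * ENNReal.ofReal (C * (2 * e) * s ^ n) := by
        gcongr
        exact hs s hs0 hss
    _ = ENNReal.ofReal (2 * K * C * (2 * R) ^ n * e) := by
        rw [← ENNReal.ofReal_mul (by positivity)]
        congr 1
        have : s ^ n = s₀ ^ n * (2 * R) ^ n := by
          rw [hsdef, ← Real.mul_rpow h0.le (by positivity)]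
          congr 1
          ring
        rw [this, Real.rpow_neg h0.le]
        have : s₀ ^ n ≠ 0 := (Real.rpow_pos_of_pos h0 n).ne'
        field_simp

end Vale.Agent.P233.H276
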