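import Vale.Agent.P233.Gig.IfD
import Vale.Agent.P233.H276.Small

/-! P233, blocks D2 and D6 of the interface `Gig/IfD`. -/

set_option linter.all false

open MeasureTheory Filter Topology Set
open scoped ENNReal NNReal

universe u

namespace Vale.Agent.P233.H276

variable {M : Type u} [MetricSpace M] [MeasurableSpace M]

theorem gn_measurable (m : Measure M) (h : M →ₘ[m] ℝ) : Measurable (PD.gn m h) :=
  Real.continuous_sqrt.measurable.comp ((sob m).Γ h h).measurable

theorem gn_nonneg (m : Measure M) (h : M →ₘ[m] ℝ) (x : M) : 0 ≤ PD.gn m h x := Real.sqrt_nonneg _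

/-- from the structure of `IfD` to the structure of `H276.Morrey` -/
theorem contr_of [BorelSpace M] {m : Measure M} {p : M} {s₀ R n K : ℝ} {Y : ℝ → M → M}
    (h : PD.Contr m p s₀ R n K Y) : Contr m p s₀ R n (max K 0) Y where
  meas := h.meas
  rad := fun t ht => by
    filter_upwards [h.rad] with x hx hxR using hx hxR t ht
  dens := fun t ht A hA => (h.dens t ht A hA).trans (by
    gcongr
    · exact Real.rpow_nonneg ht.1.le _
    · exact le_max_left _ _)

theorem ug_of [BorelSpace M] {m : Measure M} {p : M} {s₀ R n K : ℝ} {Y : ℝ → M → M}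
    (hs : 0 < s₀) (h : PD.Contr m p s₀ R n K Y) {f : M →ₘ[m] ℝ} {b : M → ℝ} (hb : PD.LW m f b) :
    UG m p s₀ R Y b (PD.gn m f) := by
  intro t ht
  filter_upwards [h.curve f b hb] with x hx hxR
  obtain ⟨h1, h2⟩ := hx hxR t ht
  rw [intervalIntegral.integral_of_le ht.2] at h2
  have h3 : IntegrableOn (fun τ => PD.gn m f (Y τ x)) (Ioc t 1) volume :=
    (intervalIntegrable_iff_integrableOn_Ioc_of_le ht.2).1 h1
  rw [← ofReal_integral_eq_lintegral_ofReal h3 (ae_of_all _ fun τ => gn_nonneg m f _),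
    ← ENNReal.ofReal_mul (by positivity)]
  exact ENNReal.ofReal_le_ofReal h2

theorem blk_D2 : PD.Blk_D2.{u} := by
  intro M _ _ _ _ _ m n K hSp q hnq hq1 R₀ hR₀
  obtain ⟨K', hK'⟩ := hSp.contr R₀ hR₀
  have hq0 : 0 < q := by linarith
  have hnq' : 0 < 1 - (n:ℝ) / q := by
    have : (n:ℝ) / q < 1 := by rw [div_lt_one hq0]; exact hnq
    linarith
  set K₁ := max K' 0 with hK₁
  have hK₁0 : 0 ≤ K₁ := le_max_right _ _
  refine ⟨K₁ ^ q⁻¹ * (1 - n / q)⁻¹, by positivity, ?_⟩
  intro p R hR hRR f b hfb c hc η hη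
  obtain ⟨L, hL⟩ := hfb.2.1
  have hbp : ∀ x, |b x - b p| ≤ (L:ℝ) * dist p x := fun x => by
    have := hL.dist_le_mul x p
    rwa [Real.dist_eq, dist_comm x p] at this
  have h1 := morrey (m := m) (p := p) (R := R₀) (n := n) (K := K₁) (q := q) (c := c) (η := η)
    (R' := R) (L := L) hK₁0 hbp hL.continuous.measurable (gn_measurable m f) (fun ε hε => by
      obtain ⟨Y, hY⟩ := hK' p (min 1 ε) ⟨by positivity, min_le_left _ _⟩
      exact ⟨min 1 ε, by positivity, min_le_right _ _, Y, contr_of hY, ug_of (by positivity) hY hfb⟩)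
    hR hRR (hSp.std.hfin p R).ne hq1 hnq hc L.coe_nonneg hη
  refine h1.trans ?_
  have e1 : K₁ * ((1 - (n:ℝ) / q)⁻¹ / η) ^ q = (K₁ ^ q⁻¹ * (1 - n / q)⁻¹ / η) ^ q := by
    rw [mul_div_assoc, Real.mul_rpow (by positivity) (by positivity), ← Real.rpow_mul hK₁0,
      inv_mul_cancel₀ hq0.ne', Real.rpow_one]
  rw [e1]
  gcongr with x
  exact le_max_right _ _

/-- linearity of the first variation -/
theorem fvar_sum {b : ℕ → M → ℝ} {p y : M} {a : ℕ → ℝ} (h : ∀ i, PD.FV (b i) p y (a i))
    (k : ℕ) (c : ℕ → ℝ) :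
    FVar (fun z => ∑ i ∈ Finset.range k, c i * b i z) y p (∑ i ∈ Finset.range k, c i * a i) := by
  intro ε hε
  induction k generalizing ε with
  | zero =>
    refine ⟨1, one_pos, fun z _ _ => ?_⟩
    simp only [Finset.range_zero, Finset.sum_empty]
    have := dist_nonneg (x := y) (y := z)
    simp only [sub_self, mul_zero, add_zero, abs_zero]
    positivity
  | succ k ih =>
    obtain ⟨δ₁, hδ₁, h1⟩ := ih (ε / 2) (by positivity)
    obtain ⟨δ₂, hδ₂, h2⟩ := h k (ε / (2 * (|c k| + 1))) (by positivity)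
    refine ⟨min δ₁ δ₂, lt_min hδ₁ hδ₂, fun z hz hz' => ?_⟩
    have a1 := h1 z (hz.trans_le (min_le_left _ _)) hz'
    have a2 := h2 z (hz.trans_le (min_le_right _ _)) hz'
    simp only [Finset.sum_range_succ]
    have hd : 0 ≤ dist y z := dist_nonneg
    have a3 : |c k * (b k z - b k y + dist y z * a k)| ≤ ε / 2 * dist y z := by
      rw [abs_mul]
      calc |c k| * |b k z - b k y + dist y z * a k|
          ≤ (|c k| + 1) * (ε / (2 * (|c k| + 1)) * dist y z) := by
            gcongr
            linarith [abs_nonneg (c k)]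
        _ = ε / 2 * dist y z := by
            have : |c k| + 1 ≠ 0 := by positivity
            field_simp
    have e : (∑ i ∈ Finset.range k, c i * b i z + c k * b k z) -
        (∑ i ∈ Finset.range k, c i * b i y + c k * b k y) +
        dist y z * (∑ i ∈ Finset.range k, c i * a i + c k * a k) =
        ((∑ i ∈ Finset.range k, c i * b i z) - (∑ i ∈ Finset.range k, c i * b i y) +
          dist y z * ∑ i ∈ Finset.range k, c i * a i) +
        c k * (b k z - b k y + dist y z * a k) := by ring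
    rw [e]
    refine (abs_add_le _ _).trans ?_
    linarith

theorem blk_D6 : PD.Blk_D6.{u} := by
  intro M _ _ _ _ _ m n K hSp hGeo hFV hSl x₀ R₀
  obtain ⟨C, hC⟩ := hSl x₀ R₀
  by_cases hR₀ : R₀ ≤ 0
  · refine ⟨0, fun f b G g hT => ?_⟩
    refine ae_of_all _ fun y hy => ?_
    have := dist_nonneg (x := x₀) (y := y)
    linarith
  push Not at hR₀
  obtain ⟨K', hK'⟩ := hSp.contr (2 * R₀) (by positivity)
  refine ⟨2 * max K' 0 * max C 0 * (2 * (2 * R₀)) ^ (n:ℝ), fun f b G g hT => ?_⟩
  have hF : ∀ᵐ y ∂m, ∀ i, ∀ᵐ p ∂m, PD.FV (b i) p y (g i p y) := by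
    rw [ae_all_iff]
    intro i
    exact hFV (f i) (b i) (g i) (hT.lip i) (hT.ver i)
  filter_upwards [hC f b G g hT, hF] with y h1 h2 hy k c hqf ε hε
  have h3 : ∀ᵐ p ∂m, dist y p < 2 * R₀ →
      FVar (fun z => ∑ i ∈ Finset.range k, c i * b i z) y p
        (∑ i ∈ Finset.range k, c i * g i p y) := by
    have := ae_all_iff.2 h2
    filter_upwards [this] with p hp _
    exact fvar_sum hp k c
  have hbm : Measurable fun z => ∑ i ∈ Finset.range k, c i * b i z := by
    refine Finset.measurable_fun_sum _ fun i _ => ?_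
    obtain ⟨L, hL⟩ := (hT.lip i).2.1
    exact (hL.continuous.measurable).const_mul _
  have h4 : Slab m (fun z => ∑ i ∈ Finset.range k, c i * b i z) y (n:ℝ) (max C 0) := by
    intro e he
    obtain ⟨s₁, hs₁, hs⟩ := (mem_nhdsGT_iff_exists_Ioo_subset).1 (h1 hy k c hqf e he)
    refine ⟨s₁, hs₁, fun s hs0 hss => ?_⟩
    have h5 := hs ⟨hs0, hss⟩
    simp only [mem_setOf_eq] at h5
    have e1 : ∀ z, ∑ i ∈ Finset.range k, c i * (b i z - b i y) =
        (∑ i ∈ Finset.range k, c i * b i z) - ∑ i ∈ Finset.range k, c i * b i y := fun z => by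
      rw [← Finset.sum_sub_distrib]
      exact Finset.sum_congr rfl fun i _ => by ring
    simp only [e1] at h5
    refine h5.trans ?_
    rw [Real.rpow_natCast]
    gcongr
    exact le_max_left _ _
  have h6 := small_balls (m := m) (y := y) (R := 2 * R₀) (K := max K' 0) (C := max C 0)
    (n := (n:ℝ)) (e := ε) (by positivity) (le_max_right _ _) (le_max_right _ _) hbm hε
    (fun δ hδ => by
      obtain ⟨Y, hY⟩ := hK' y (min 1 δ) ⟨by positivity, min_le_left _ _⟩
      exact ⟨min 1 δ, by positivity, min_le_right _ _, Y, contr_of hY⟩) h3 h4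
  refine le_trans (measure_mono ?_) h6
  rintro p ⟨hp1, hp2⟩
  refine ⟨?_, hp2⟩
  have := dist_triangle_left y p x₀
  linarith

end Vale.Agent.P233.H276
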