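import Vale.Agent.P233.Gig.IfD
import Vale.Agent.P233.Gig.IfC
import Vale.Agent.P233.H276.BlkD2
import Vale.Agent.P233.H950.Dp

/-! P233, row CCONTR: from the curve flow (output of part C) to the contraction maps (input of
part D). -/

set_option linter.all false

open MeasureTheory Filter Topology Set
open scoped ENNReal NNReal InnerProductSpace

universe u

namespace Vale.Agent.P233.H276

open Vale.Agent.P233.PC

section measure

variable {M : Type*} [MeasurableSpace M] {m : Measure M}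

/-- null sets pull back to null sets along the flow -/
theorem ae_flow_of_ae {S : Set M} {Y : M → M} {c : ℝ≥0∞}
    (hd : ∀ A : Set M, MeasurableSet A → m {x | x ∈ S ∧ Y x ∈ A} ≤ c * m A)
    {P : M → Prop} (h : ∀ᵐ x ∂m, P x) : ∀ᵐ x ∂m, x ∈ S → P (Y x) := by
  obtain ⟨N, hN, hNm, hN0⟩ := exists_measurable_superset_of_null (ae_iff.1 h)
  have h1 := hd N hNm
  rw [hN0, mul_zero, nonpos_iff_eq_zero] at h1
  rw [ae_iff]
  refine measure_mono_null ?_ h1
  intro x hx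
  simp only [mem_setOf_eq, not_forall] at hx
  obtain ⟨hxS, hx⟩ := hx
  exact ⟨hxS, hN hx⟩

/-- along almost every curve, for almost every time -/
theorem ae_ae_flow_of_ae [SFinite m] {S : Set M} (hS : MeasurableSet S) {Y : ℝ → M → M}
    {c : ℝ → ℝ≥0∞} (hY : Measurable (fun z : ℝ × M => Y z.1 z.2))
    (hd : ∀ t ∈ Ioc (0:ℝ) 1, ∀ A : Set M, MeasurableSet A → m {x | x ∈ S ∧ Y t x ∈ A} ≤ c t * m A)
    {P : M → Prop} (h : ∀ᵐ x ∂m, P x) :
    ∀ᵐ x ∂m, x ∈ S → ∀ᵐ t : ℝ, t ∈ Ioc (0:ℝ) 1 → P (Y t x) := by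
  obtain ⟨N, hN, hNm, hN0⟩ := exists_measurable_superset_of_null (ae_iff.1 h)
  have h1 : ∀ᵐ t : ℝ, ∀ᵐ x ∂m, (t ∈ Ioc (0:ℝ) 1 ∧ x ∈ S) → Y t x ∉ N := by
    refine ae_of_all _ fun t => ?_
    by_cases ht : t ∈ Ioc (0:ℝ) 1
    · filter_upwards [ae_flow_of_ae (hd t ht) (P := fun y => y ∉ N) (by
        rw [ae_iff]; simpa using hN0)] with x hx hx'
      exact hx hx'.2
    · exact ae_of_all _ fun x hx => absurd hx.1 ht
  have hm : MeasurableSet {z : ℝ × M | (z.1 ∈ Ioc (0:ℝ) 1 ∧ z.2 ∈ S) → Y z.1 z.2 ∉ N} := by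
    have e : {z : ℝ × M | (z.1 ∈ Ioc (0:ℝ) 1 ∧ z.2 ∈ S) → Y z.1 z.2 ∉ N} =
        ({z : ℝ × M | z.1 ∈ Ioc (0:ℝ) 1} ∩ {z | z.2 ∈ S})ᶜ ∪ ((fun z : ℝ × M => Y z.1 z.2) ⁻¹' N)ᶜ := by
      ext z
      simp only [mem_setOf_eq, mem_union, mem_compl_iff, mem_inter_iff, mem_preimage]
      tauto
    rw [e]
    exact (((measurable_fst measurableSet_Ioc).inter (measurable_snd hS)).compl).union
      (hY hNm).compl
  have h2 := (Measure.ae_ae_comm (μ := (volume : Measure ℝ)) (ν := m)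
    (p := fun t x => (t ∈ Ioc (0:ℝ) 1 ∧ x ∈ S) → Y t x ∉ N) hm).1 h1
  filter_upwards [h2] with x hx hxS
  filter_upwards [hx] with t ht htI
  by_contra hP
  exact ht ⟨htI, hxS⟩ (hN hP)

/-- integrability along almost every curve -/
theorem ae_lintegral_flow_lt_top [SFinite m] {S : Set M} (hS : MeasurableSet S) {Y : ℝ → M → M}
    {n K : ℝ} (hY : Measurable (fun z : ℝ × M => Y z.1 z.2))
    (hd : ∀ t ∈ Ioc (0:ℝ) 1, ∀ A : Set M, MeasurableSet A →
      m {x | x ∈ S ∧ Y t x ∈ A} ≤ ENNReal.ofReal (K * t ^ (-n)) * m A)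
    {f : M → ℝ≥0∞} (hf : Measurable f) (hfi : ∫⁻ x, f x ∂m ≠ ∞) :
    ∀ᵐ x ∂m, x ∈ S → ∀ t ∈ Ioc (0:ℝ) 1, ∫⁻ τ in Ioc t 1, f (Y τ x) < ∞ := by
  have hYt : ∀ t, Measurable (Y t) := fun t => hY.comp (measurable_const.prodMk measurable_id)
  have h1 : ∀ k : ℕ, ∀ᵐ x ∂m, x ∈ S → ∫⁻ τ in Ioc (1 / ((k:ℝ) + 1)) 1, f (Y τ x) < ∞ := by
    intro k
    have hk : (0:ℝ) < 1 / ((k:ℝ) + 1) := by positivity
    obtain ⟨c, hc0, hc⟩ : ∃ c : ℝ, 0 ≤ c ∧ ∀ τ ∈ Ioc (1 / ((k:ℝ) + 1)) 1, K * τ ^ (-n) ≤ c := by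
      have hcont : ContinuousOn (fun τ : ℝ => K * τ ^ (-n)) (Icc (1 / ((k:ℝ) + 1)) 1) := by
        refine continuousOn_const.mul (ContinuousOn.rpow_const continuousOn_id fun τ hτ => Or.inl ?_)
        exact (hk.trans_le hτ.1).ne'
      obtain ⟨B, hB⟩ := isCompact_Icc.exists_bound_of_continuousOn hcont
      refine ⟨max B 0, le_max_right _ _, fun τ hτ => ?_⟩
      exact ((le_abs_self _).trans (hB τ ⟨hτ.1.le, hτ.2⟩)).trans (le_max_left _ _)
    have h2 : ∫⁻ x in S, (∫⁻ τ in Ioc (1 / ((k:ℝ) + 1)) 1, f (Y τ x)) ∂m ≠ ∞ := by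
      have hmm : Measurable (Function.uncurry fun (x : M) (τ : ℝ) => f (Y τ x)) :=
        hf.comp (hY.comp measurable_swap)
      rw [lintegral_lintegral_swap hmm.aemeasurable]
      refine ne_top_of_le_ne_top (b := ∫⁻ τ in Ioc (1 / ((k:ℝ) + 1)) 1,
        ENNReal.ofReal c * ∫⁻ x, f x ∂m) ?_ ?_
      · rw [setLIntegral_const]
        refine ENNReal.mul_ne_top (ENNReal.mul_ne_top ENNReal.ofReal_ne_top hfi) ?_
        rw [Real.volume_Ioc]
        exact ENNReal.ofReal_ne_top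
      · refine setLIntegral_mono' measurableSet_Ioc fun τ hτ => ?_
        have h3 := lintegral_push_le (B := univ) hS MeasurableSet.univ (hYt τ)
          (hd τ ⟨hk.trans hτ.1, hτ.2⟩) (ae_of_all _ fun _ _ => mem_univ _) hf
        rw [setLIntegral_univ] at h3
        refine h3.trans ?_
        gcongr
        exact hc τ hτ
    have h4 := ae_lt_top' (μ := m.restrict S)
      (f := fun x => ∫⁻ τ in Ioc (1 / ((k:ℝ) + 1)) 1, f (Y τ x)) ?_ h2
    · rwa [ae_restrict_iff' hS] at h4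
    · exact (Measurable.lintegral_prod_left' (f := fun z : ℝ × M => f (Y z.1 z.2))
        (hf.comp hY)).aemeasurable
  filter_upwards [ae_all_iff.2 h1] with x hx hxS t ht
  obtain ⟨k, hk⟩ := exists_nat_one_div_lt ht.1
  exact (lintegral_mono_set (Ioc_subset_Ioc_left hk.le)).trans_lt (hx k hxS)

/-- interval integrability of an `L²` function along almost every curve -/
theorem ae_intervalIntegrable_flow [SFinite m] {S : Set M} (hS : MeasurableSet S)
    {Y : ℝ → M → M} {n K : ℝ} (hY : Measurable (fun z : ℝ × M => Y z.1 z.2))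
    (hd : ∀ t ∈ Ioc (0:ℝ) 1, ∀ A : Set M, MeasurableSet A →
      m {x | x ∈ S ∧ Y t x ∈ A} ≤ ENNReal.ofReal (K * t ^ (-n)) * m A)
    {G : M → ℝ} (hG : Measurable G) (hG2 : MemLp G 2 m) :
    ∀ᵐ x ∂m, x ∈ S → ∀ t ∈ Ioc (0:ℝ) 1, IntervalIntegrable (fun τ => G (Y τ x)) volume t 1 := by
  have h1 : ∫⁻ x, ENNReal.ofReal (G x ^ 2) ∂m ≠ ∞ := by
    have h2 : Integrable (fun x => G x ^ 2) m := hG2.integrable_sq
    have h3 := h2.lintegral_lt_top
    exact h3.ne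
  have hGm : Measurable fun x => ENNReal.ofReal (G x ^ 2) :=
    ENNReal.measurable_ofReal.comp (hG.pow_const 2)
  filter_upwards [ae_lintegral_flow_lt_top hS hY hd hGm h1] with x hx hxS t ht
  have hYx : Measurable fun τ => G (Y τ x) :=
    hG.comp (hY.comp (measurable_id.prodMk measurable_const))
  rw [intervalIntegrable_iff_integrableOn_Ioc_of_le ht.2]
  have h3 : IntegrableOn (fun τ => G (Y τ x) ^ 2) (Ioc t 1) volume := by
    refine ⟨(hYx.pow_const 2).aestronglyMeasurable, ?_⟩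
    rw [hasFiniteIntegral_iff_ofReal (ae_of_all _ fun τ => sq_nonneg _)]
    exact hx hxS t ht
  have h4 : IntegrableOn (fun τ => 1 + G (Y τ x) ^ 2) (Ioc t 1) volume := by
    refine Integrable.add ?_ h3
    exact (integrableOn_const (by rw [Real.volume_Ioc]; exact ENNReal.ofReal_ne_top))
  refine Integrable.mono' h4 hYx.aestronglyMeasurable (ae_of_all _ fun τ => ?_)
  rw [Real.norm_eq_abs]
  nlinarith [abs_nonneg (G (Y τ x)), sq_abs (G (Y τ x)), sq_nonneg (|G (Y τ x)| - 1)]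

end measure

section metric

variable {M : Type u} [MetricSpace M] [MeasurableSpace M] [BorelSpace M] {m : Measure M}
variable {E : Type*} [NormedAddCommGroup E] [InnerProductSpace ℝ E]

theorem measurableSet_dist_lt (p : M) (R : ℝ) : MeasurableSet {x : M | dist p x < R} :=
  (isOpen_lt (continuous_const.dist continuous_id) continuous_const).measurableSet

/-- `|∇h| ∈ L²` -/
theorem memLp_gn (hG : ∃ (E : Type) (_ : NormedAddCommGroup E) (_ : InnerProductSpace ℝ E)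
    (Gr : (M →ₘ[m] ℝ) → M → E), IsGrad (sob m) Gr) {h : M →ₘ[m] ℝ} (hh : h ∈ (sob m).W) :
    MemLp (PD.gn m h) 2 m := by
  obtain ⟨E, _, _, Gr, hG⟩ := hG
  refine (hG.mem h hh).norm.ae_eq ?_
  filter_upwards [hG.inner h hh h hh] with x hx
  rw [PD.gn, ← hx, real_inner_self_eq_norm_sq, Real.sqrt_sq (norm_nonneg _)]

/-- From curves to contraction maps. -/
theorem contr_of_curves [SFinite m] {p : M} {s₀ R n D : ℝ} {Y : ℝ → M → M}
    {g : (M →ₘ[m] ℝ) → ℝ → M → ℝ} (hs₀ : 0 ≤ s₀)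
    (hgn : ∀ h ∈ (sob m).W, MemLp (PD.gn m h) 2 m)
    (meas : Measurable fun q : ℝ × M => Y q.1 q.2)
    (one : ∀ᵐ x ∂m, dist p x < R → Y 1 x = x)
    (geod : ∀ᵐ x ∂m, dist p x < R → ∀ s ∈ Ioc (0:ℝ) 1, ∀ t ∈ Ioc (0:ℝ) 1,
      dist (Y s x) (Y t x) = dist p x / (1 + s₀) * |s - t|)
    (rad : ∀ᵐ x ∂m, dist p x < R → ∀ t ∈ Ioc (0:ℝ) 1,
      dist p (Y t x) = (t + s₀) / (1 + s₀) * dist p x)
    (dens : ∀ t ∈ Ioc (0:ℝ) 1, ∀ A : Set M, MeasurableSet A →
      m {x | dist p x < R ∧ Y t x ∈ A} ≤ ENNReal.ofReal (D * t ^ (-n)) * m A)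
    (ac : ∀ h b, PD.LW m h b → ∀ᵐ x ∂m, dist p x < R → ∀ᵐ t ∂(volume.restrict (Ioo (0:ℝ) 1)),
      b (Y t x) = b x - ∫ r in t..1, g h r x)
    (hV : ∀ h ∈ (sob m).W, ∀ᵐ x ∂m, dist p x < R → ∀ᵐ t ∂(volume.restrict (Ioo (0:ℝ) 1)),
      |g h t x| ≤ dist p x / (1 + s₀) * PD.gn m h (Y t x)) :
    PD.Contr m p s₀ R n D Y := by
  have hS := measurableSet_dist_lt p R
  refine ⟨meas, ?_, dens, ?_⟩
  · filter_upwards [one, geod, rad] with x h1 h2 h3 hx t ht
    refine ⟨h3 hx t ht, ?_⟩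
    have h4 := h2 hx t ht 1 ⟨one_pos, le_rfl⟩
    rw [h1 hx] at h4
    rw [h4, abs_of_nonpos (by linarith [ht.2])]
    ring
  · rintro h b hLW
    obtain ⟨hW, ⟨L, hL⟩, hb⟩ := hLW
    have e3 := ae_intervalIntegrable_flow hS meas dens (gn_measurable m h) (hgn h hW)
    filter_upwards [one, geod, ac h b ⟨hW, ⟨L, hL⟩, hb⟩, hV h hW, e3] with x x1 x2 x3 x4 x7 hx t ht
    refine ⟨x7 hx t ht, ?_⟩
    have hl : 0 ≤ dist p x / (1 + s₀) := by positivity
    -- a.e. time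
    have key : ∀ᵐ t ∂(volume.restrict (Ioo (0:ℝ) 1)),
        |b x - b (Y t x)| ≤ dist p x / (1 + s₀) * ∫ τ in t..1, PD.gn m h (Y τ x) := by
      have y4 := (ae_restrict_iff' measurableSet_Ioo).1 (x4 hx)
      rw [ae_restrict_iff' measurableSet_Ioo]
      filter_upwards [(ae_restrict_iff' measurableSet_Ioo).1 (x3 hx)] with t z1 hT
      have hT' : t ∈ Ioc (0:ℝ) 1 := ⟨hT.1, hT.2.le⟩
      rw [z1 hT]
      have e : b x - (b x - ∫ r in t..1, g h r x) = ∫ r in t..1, g h r x := by ring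
      rw [e, ← Real.norm_eq_abs, ← intervalIntegral.integral_const_mul]
      refine intervalIntegral.norm_integral_le_of_norm_le hT.2.le ?_
        ((x7 hx t hT').const_mul _)
      have hne : ∀ᵐ r : ℝ, r ≠ 1 := by
        rw [ae_iff]; simp
      filter_upwards [y4, hne] with r w1 w3 hr
      have hr1 : r ∈ Ioo (0:ℝ) 1 := ⟨hT.1.trans hr.1, lt_of_le_of_ne hr.2 w3⟩
      rw [Real.norm_eq_abs]
      exact w1 hr1
    rcases eq_or_lt_of_le ht.2 with h1 | h1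
    · rw [h1, x1 hx]; simp
    refine le_of_forall_pos_le_add fun ε hε => ?_
    -- a good time slightly larger than `t`
    obtain ⟨δ, hδ, hδε⟩ : ∃ δ > 0, L * (dist p x / (1 + s₀)) * δ ≤ ε := by
      have hc : 0 ≤ L * (dist p x / (1 + s₀)) := by positivity
      refine ⟨ε / (L * (dist p x / (1 + s₀)) + 1), by positivity, ?_⟩
      rw [mul_div_assoc', div_le_iff₀ (by positivity)]
      nlinarith
    have hlt : t < min 1 (t + δ) := lt_min h1 (by linarith)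
    have hsub : Ioo t (min 1 (t + δ)) ⊆ Ioo (0:ℝ) 1 :=
      fun r hr => ⟨ht.1.trans hr.1, hr.2.trans_le (min_le_left _ _)⟩
    have hne : NeBot (ae (volume.restrict (Ioo t (min 1 (t + δ))))) := by
      rw [ae_neBot]
      intro h0
      have h2 : volume (Ioo t (min 1 (t + δ))) = 0 := by
        rw [← Measure.restrict_apply_univ, h0]; simp
      rw [Real.volume_Ioo, ENNReal.ofReal_eq_zero] at h2
      linarith
    have key' : ∀ᵐ r ∂(volume.restrict (Ioo t (min 1 (t + δ)))),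
        |b x - b (Y r x)| ≤ dist p x / (1 + s₀) * ∫ τ in r..1, PD.gn m h (Y τ x) :=
      ae_mono (Measure.restrict_mono hsub le_rfl) key
    obtain ⟨r, hr1, hr2⟩ := (key'.and (ae_restrict_mem measurableSet_Ioo)).exists
    have hrI : r ∈ Ioc (0:ℝ) 1 := ⟨(hsub hr2).1, (hsub hr2).2.le⟩
    have a1 : |b (Y r x) - b (Y t x)| ≤ ε := by
      have := hL.dist_le_mul (Y r x) (Y t x)
      rw [Real.dist_eq, x2 hx r hrI t ht, abs_of_nonneg (by linarith [hr2.1] : 0 ≤ r - t)] at this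
      refine this.trans (le_trans ?_ hδε)
      rw [← mul_assoc]
      gcongr
      have := hr2.2.trans_le (min_le_right _ _)
      linarith
    have a2 : ∫ τ in r..1, PD.gn m h (Y τ x) ≤ ∫ τ in t..1, PD.gn m h (Y τ x) := by
      refine intervalIntegral.integral_mono_interval hr2.1.le hrI.2 le_rfl ?_ (x7 hx t ht)
      exact ae_of_all _ fun τ => gn_nonneg m h _
    calc |b x - b (Y t x)| ≤ |b x - b (Y r x)| + |b (Y r x) - b (Y t x)| := abs_sub_le _ _ _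
      _ ≤ (dist p x / (1 + s₀) * ∫ τ in r..1, PD.gn m h (Y τ x)) + ε := add_le_add hr1 a1
      _ ≤ (dist p x / (1 + s₀) * ∫ τ in t..1, PD.gn m h (Y τ x)) + ε := by gcongr

variable [SecondCountableTopology M]

/-- The radial flow of part C gives contraction maps. -/
theorem contr_of_rflow [SFinite m] (hfin : ∀ (x : M) (r : ℝ), m (Metric.ball x r) < ∞)
    (hC : IsDir (sob m)) {p : M} {s₀ C₀ R K N : ℝ}
    {Y : ℝ → M → M} (hs₀ : 0 < s₀) (F : RFlow m K N p s₀ C₀ Y)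
    (hu : ∀ᵐ x ∂m, dist p x < r1 s₀ C₀ → (sob m).Γ (dc m p s₀ C₀) (dc m p s₀ C₀) x = 1)
    (hR : R ≤ r1 s₀ C₀) :
    PD.Contr m p s₀ R N (cK K C₀) Y := by
  have dens' : ∀ t ∈ Ioc (0:ℝ) 1, ∀ A : Set M, MeasurableSet A →
      m {x | dist p x < R ∧ Y t x ∈ A} ≤ ENNReal.ofReal (cK K C₀ * t ^ (-N)) * m A :=
    fun t ht A hA => (measure_mono fun x hx => hx.2).trans (F.dens t ht A hA)
  have hgn : ∀ h ∈ (sob m).W, MemLp (PD.gn m h) 2 m := by
    intro h hh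
    rw [memLp_two_iff_integrable_sq (gn_measurable m h).aestronglyMeasurable]
    refine (memLp_one_iff_integrable.1 (hC.mem1 h hh)).congr ?_
    filter_upwards [hC.Γ_nonneg_ae hh] with x hx
    rw [PD.gn, Real.sq_sqrt hx]
  refine contr_of_curves
    (g := fun h t x => spd1 p s₀ x * (sob m).Γ h (dc m p s₀ C₀) (Y t x)) hs₀.le hgn F.meas
    (ae_of_all _ fun x _ => F.one x) ?_ ?_ dens' ?_ ?_
  · filter_upwards [F.geo] with x h1 hx s hs t ht
    rw [h1 (hx.trans_le hR) s ⟨hs.1.le, hs.2⟩ t ⟨ht.1.le, ht.2⟩, spd1, mul_comm]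
  · filter_upwards [F.rad] with x h1 hx t ht
    rw [h1 (hx.trans_le hR) t ⟨ht.1.le, ht.2⟩, spd1]
    ring
  · intro h b hLW
    obtain ⟨hW, hL, hb⟩ := hLW
    have hcl : cl m b = h := by
      have hbm : AEStronglyMeasurable b m := h.aestronglyMeasurable.congr hb
      rw [cl, dif_pos hbm]
      refine AEEqFun.ext ?_
      exact (AEEqFun.coeFn_mk b hbm).trans hb.symm
    filter_upwards [F.derLip b hL (by rw [hcl]; exact hW)] with x h1 hx
    rw [ae_restrict_iff' measurableSet_Ioo]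
    refine ae_of_all _ fun t ht => ?_
    have h2 := h1 (hx.trans_le hR) t ⟨ht.1.le, ht.2.le⟩ 1 ⟨ht.2.le, le_rfl⟩
    replace h2 := h2.2
    rw [F.one, hcl] at h2
    rw [intervalIntegral.integral_const_mul, ← h2]
    ring
  · intro h hW
    have hd : dc m p s₀ C₀ ∈ (sob m).W := PD.dp_mem hfin p (r1 s₀ C₀)
    have e0 : ∀ᵐ y ∂m, dist p y < r1 s₀ C₀ →
        |(sob m).Γ h (dc m p s₀ C₀) y| ≤ PD.gn m h y := by
      filter_upwards [hC.Γ_cs_ae hW hd, hu, hC.Γ_nonneg_ae hW] with y y1 y2 y3 hy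
      rw [PD.gn]
      refine Real.abs_le_sqrt ?_
      rw [y2 hy, mul_one] at y1
      exact y1
    have e1 := ae_ae_flow_of_ae (measurableSet_dist_lt p R) F.meas
      (c := fun t => ENNReal.ofReal (cK K C₀ * t ^ (-N))) dens' e0
    filter_upwards [e1, F.rad] with x x1 x2 hx
    rw [ae_restrict_iff' measurableSet_Ioo]
    filter_upwards [x1 hx] with t z1 ht
    have ht' : t ∈ Ioc (0:ℝ) 1 := ⟨ht.1, ht.2.le⟩
    have h3 : dist p (Y t x) < r1 s₀ C₀ := by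
      rw [x2 (hx.trans_le hR) t ⟨ht.1.le, ht.2.le⟩, spd1]
      refine lt_of_le_of_lt ?_ (hx.trans_le hR)
      have : (t + s₀) / (1 + s₀) ≤ 1 := by
        rw [div_le_one (by linarith)]
        linarith [ht.2]
      calc (t + s₀) * (dist p x / (1 + s₀)) = (t + s₀) / (1 + s₀) * dist p x := by ring
        _ ≤ 1 * dist p x := by gcongr
        _ = dist p x := one_mul _
    have hl : 0 ≤ dist p x / (1 + s₀) := by positivity
    rw [spd1, abs_mul, abs_of_nonneg hl]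
    gcongr
    exact z1 ht' h3

/-- Contraction maps for all centres. -/
theorem hasContr_of_rflow [SFinite m] (hfin : ∀ (x : M) (r : ℝ), m (Metric.ball x r) < ∞)
    (hC : IsDir (sob m)) {K N : ℝ}
    (H : ∀ (p : M) (s₀ C₀ : ℝ), 0 < s₀ → s₀ ≤ 1 → 0 < C₀ → ∃ Y : ℝ → M → M,
      RFlow m K N p s₀ C₀ Y ∧
      ∀ᵐ x ∂m, dist p x < r1 s₀ C₀ → (sob m).Γ (dc m p s₀ C₀) (dc m p s₀ C₀) x = 1) :
    PD.HasContr m N := by
  intro R hR
  refine ⟨cK K (R ^ 2 / 2), fun p s₀ hs => ?_⟩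
  obtain ⟨Y, hY, hu⟩ := H p s₀ (R ^ 2 / 2) hs.1 hs.2 (by positivity)
  refine ⟨Y, contr_of_rflow hfin hC hs.1 hY hu ?_⟩
  rw [r1]
  refine Real.le_sqrt_of_sq_le ?_
  nlinarith [hs.1, sq_nonneg R]

/-- CCONTR: the radial flows of part C give the input of part D. -/
theorem blk_C4D : Blk_C4D.{u} := by
  intro M _ _ _ _ _ m K N hS _ _ H
  haveI : SigmaFinite m := sigmaFinite_of_ball hS.hfin
  refine hasContr_of_rflow (K := K) hS.hfin
    (isGamma_sob hS.hfin hS.rcd.quadratic hS.rcd.sobolev_to_lipschitz).toIsDir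
    fun p s₀ C₀ h1 h2 h3 => ?_
  obtain ⟨φ, ρ, R, Y, a1, _, a3⟩ := H p s₀ C₀ h1 h2 h3
  exact ⟨Y, a3, a1.unit⟩

end metric

end Vale.Agent.P233.H276
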