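import Mathlib

/-! P233, block D2: the Morrey estimate from contraction maps. Pure measure theory. -/

open MeasureTheory Filter Topology Set
open scoped ENNReal NNReal

namespace Vale.Agent.P233.H276

variable {M : Type*} [MeasurableSpace M] {m : Measure M}

/-- Push-forward bound, in integrated form. -/
theorem lintegral_push_le {S B : Set M} {Y : M → M} {c : ℝ≥0∞} (hS : MeasurableSet S)
    (hBm : MeasurableSet B) (hY : Measurable Y)
    (hd : ∀ A : Set M, MeasurableSet A → m {x | x ∈ S ∧ Y x ∈ A} ≤ c * m A)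
    (hB : ∀ᵐ x ∂m, x ∈ S → Y x ∈ B) {f : M → ℝ≥0∞} (hf : Measurable f) :
    ∫⁻ x in S, f (Y x) ∂m ≤ c * ∫⁻ x in B, f x ∂m := by
  have h1 : (m.restrict S).map Y ≤ c • m := by
    rw [Measure.le_iff]
    intro A hA
    rw [Measure.map_apply hY hA, Measure.restrict_apply (hY hA), Measure.smul_apply, smul_eq_mul]
    refine le_trans (measure_mono ?_) (hd A hA)
    rintro x ⟨h1, h2⟩
    exact ⟨h2, h1⟩
  have h2 : ∫⁻ x in S, f (Y x) ∂m = ∫⁻ x in S, B.indicator f (Y x) ∂m := by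
    refine lintegral_congr_ae ?_
    rw [Filter.EventuallyEq, ae_restrict_iff' hS]
    filter_upwards [hB] with x hx hxS
    rw [indicator_of_mem (hx hxS)]
  calc ∫⁻ x in S, f (Y x) ∂m = ∫⁻ x in S, B.indicator f (Y x) ∂m := h2
    _ = ∫⁻ y, B.indicator f y ∂((m.restrict S).map Y) :=
        (lintegral_map (hf.indicator hBm) hY).symm
    _ ≤ ∫⁻ y, B.indicator f y ∂(c • m) := lintegral_mono' h1 le_rfl
    _ = c * ∫⁻ x in B, f x ∂m := by
        rw [lintegral_smul_measure, lintegral_indicator hBm, smul_eq_mul]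

/-- `∫_0^1 t^(-a) dt = 1/(1-a)`. -/
theorem lintegral_rpow_Ioc {a δ : ℝ} (ha : a < 1) (hδ : 0 ≤ δ) :
    ∫⁻ t in Ioc δ 1, ENNReal.ofReal (t ^ (-a)) ≤ ENNReal.ofReal (1 - a)⁻¹ := by
  have h0 : ∫⁻ t in Ioc δ 1, ENNReal.ofReal (t ^ (-a)) ≤
      ∫⁻ t in Ioc (0:ℝ) 1, ENNReal.ofReal (t ^ (-a)) :=
    lintegral_mono_set (Ioc_subset_Ioc_left hδ)
  refine h0.trans (le_of_eq ?_)
  have hi : IntervalIntegrable (fun t : ℝ => t ^ (-a)) volume 0 1 :=
    intervalIntegral.intervalIntegrable_rpow' (by linarith)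
  have h1 : ∫ t in (0:ℝ)..1, t ^ (-a) = (1 - a)⁻¹ := by
    rw [integral_rpow (Or.inl (by linarith))]
    have : (0:ℝ) ^ (-a + 1) = 0 := Real.zero_rpow (by linarith)
    rw [this, Real.one_rpow]
    rw [sub_zero, one_div]
    congr 1
    ring
  rw [← h1, intervalIntegral.integral_of_le (by norm_num)]
  rw [ofReal_integral_eq_lintegral_ofReal]
  · exact (intervalIntegrable_iff_integrableOn_Ioc_of_le (by norm_num)).1 hi
  · rw [Filter.EventuallyLE, ae_restrict_iff' measurableSet_Ioc]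
    exact ae_of_all _ fun t ht => Real.rpow_nonneg ht.1.le _

/-- The core of the Morrey estimate. -/
theorem morrey_core {S B : Set M} {Y : ℝ → M → M} {h : M → ℝ≥0∞} {δ q n K : ℝ} {e : ℝ≥0∞}
    (hS : MeasurableSet S) (hBm : MeasurableSet B) (hSf : m S ≠ ∞) (hq1 : 1 < q) (hq : n < q)
    (hδ : 0 < δ) (hK : 0 ≤ K) (hh : Measurable h)
    (hY : Measurable (fun z : ℝ × M => Y z.1 z.2))
    (hd : ∀ t ∈ Ioc δ 1, ∀ A : Set M, MeasurableSet A →
      m {x | x ∈ S ∧ Y t x ∈ A} ≤ ENNReal.ofReal (K * t ^ (-n)) * m A)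
    (hB : ∀ t ∈ Ioc δ 1, ∀ᵐ x ∂m, x ∈ S → Y t x ∈ B)
    (hl : ∀ᵐ x ∂m, x ∈ S → e ≤ ∫⁻ t in Ioc δ 1, h (Y t x)) :
    e * m S ≤ ENNReal.ofReal (K ^ q⁻¹ * (1 - n / q)⁻¹) * (∫⁻ x in B, h x ^ q ∂m) ^ q⁻¹ *
      m S ^ (1 - q⁻¹) := by
  have hq0 : 0 < q := by linarith
  have : IsFiniteMeasure (m.restrict S) := ⟨by rw [Measure.restrict_apply_univ]; exact hSf.lt_top⟩
  have hYt : ∀ t, Measurable (Y t) := fun t => hY.comp (measurable_const.prodMk measurable_id)
  set I := ∫⁻ x in B, h x ^ q ∂m with hI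
  -- the slice estimate
  have h1 : ∀ t ∈ Ioc δ 1, ∫⁻ x in S, h (Y t x) ∂m ≤
      ENNReal.ofReal (t ^ (-(n / q))) * (ENNReal.ofReal (K ^ q⁻¹) * I ^ q⁻¹ * m S ^ (1 - q⁻¹)) := by
    intro t ht
    have ht0 : 0 < t := hδ.trans ht.1
    have hpq : Real.HolderConjugate q (q / (q - 1)) := Real.HolderConjugate.conjExponent hq1
    have a1 := ENNReal.lintegral_mul_le_Lp_mul_Lq (m.restrict S) hpq
      ((hh.comp (hYt t)).aemeasurable (μ := m.restrict S)) (aemeasurable_const (b := (1:ℝ≥0∞)))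
    simp only [Pi.mul_apply, mul_one, Function.comp_apply, ENNReal.one_rpow, lintegral_const,
      Measure.restrict_apply_univ, one_mul] at a1
    have a2 : ∫⁻ x in S, h (Y t x) ^ q ∂m ≤ ENNReal.ofReal (K * t ^ (-n)) * I :=
      lintegral_push_le hS hBm (hYt t) (hd t ht) (hB t ht) (hh.pow_const q)
    have e1 : 1 / (q / (q - 1)) = 1 - q⁻¹ := by
      field_simp
    have e2 : (1:ℝ) / q = q⁻¹ := one_div q
    rw [e1, e2] at a1
    refine a1.trans ?_
    have a3 : (∫⁻ x in S, h (Y t x) ^ q ∂m) ^ q⁻¹ ≤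
        ENNReal.ofReal (t ^ (-(n / q))) * (ENNReal.ofReal (K ^ q⁻¹) * I ^ q⁻¹) := by
      refine (ENNReal.rpow_le_rpow a2 (by positivity)).trans (le_of_eq ?_)
      rw [ENNReal.mul_rpow_of_nonneg _ _ (by positivity), ENNReal.ofReal_rpow_of_nonneg
        (by positivity) (by positivity), Real.mul_rpow hK (by positivity),
        ← Real.rpow_mul ht0.le, mul_comm (K ^ q⁻¹), ENNReal.ofReal_mul (by positivity), mul_assoc]
      congr 4
      ring
    calc _ ≤ ENNReal.ofReal (t ^ (-(n / q))) * (ENNReal.ofReal (K ^ q⁻¹) * I ^ q⁻¹) *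
          m S ^ (1 - q⁻¹) := by gcongr
      _ = _ := by ring
  have h2 : e * m S ≤ ∫⁻ t in Ioc δ 1, ∫⁻ x in S, h (Y t x) ∂m := by
    have b1 : e * m S = ∫⁻ _ in S, e ∂m := by rw [setLIntegral_const]
    rw [b1]
    have b2 : ∫⁻ t in Ioc δ 1, ∫⁻ x in S, h (Y t x) ∂m =
        ∫⁻ x in S, (∫⁻ t in Ioc δ 1, h (Y t x)) ∂m := by
      rw [lintegral_lintegral_swap]
      exact (hh.comp hY).aemeasurable
    rw [b2]
    refine lintegral_mono_ae ?_
    rw [ae_restrict_iff' hS]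
    exact hl
  refine h2.trans ?_
  calc ∫⁻ t in Ioc δ 1, ∫⁻ x in S, h (Y t x) ∂m
      ≤ ∫⁻ t in Ioc δ 1, ENNReal.ofReal (t ^ (-(n / q))) *
        (ENNReal.ofReal (K ^ q⁻¹) * I ^ q⁻¹ * m S ^ (1 - q⁻¹)) :=
        setLIntegral_mono' measurableSet_Ioc h1
    _ = (∫⁻ t in Ioc δ 1, ENNReal.ofReal (t ^ (-(n / q)))) *
        (ENNReal.ofReal (K ^ q⁻¹) * I ^ q⁻¹ * m S ^ (1 - q⁻¹)) := by
        rw [lintegral_mul_const]
        exact ENNReal.measurable_ofReal.comp (measurable_id.pow_const _)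
    _ ≤ ENNReal.ofReal (1 - n / q)⁻¹ *
        (ENNReal.ofReal (K ^ q⁻¹) * I ^ q⁻¹ * m S ^ (1 - q⁻¹)) := by
        gcongr
        exact lintegral_rpow_Ioc (by rw [div_lt_one hq0]; exact hq) hδ.le
    _ = _ := by
        rw [ENNReal.ofReal_mul (by positivity)]
        ring

end Vale.Agent.P233.H276

namespace Vale.Agent.P233.H276

section
variable {M : Type*} [MeasurableSpace M] {m : Measure M}

/-- Chebyshev form of the Morrey estimate. -/
theorem morrey_cheb {S B : Set M} {Y : ℝ → M → M} {h : M → ℝ≥0∞} {δ q n K e : ℝ}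
    (hS : MeasurableSet S) (hBm : MeasurableSet B) (hSf : m S ≠ ∞) (hq1 : 1 < q) (hq : n < q)
    (hδ : 0 < δ) (hK : 0 ≤ K) (he : 0 < e) (hh : Measurable h)
    (hY : Measurable (fun z : ℝ × M => Y z.1 z.2))
    (hd : ∀ t ∈ Ioc δ 1, ∀ A : Set M, MeasurableSet A →
      m {x | x ∈ S ∧ Y t x ∈ A} ≤ ENNReal.ofReal (K * t ^ (-n)) * m A)
    (hB : ∀ t ∈ Ioc δ 1, ∀ᵐ x ∂m, x ∈ S → Y t x ∈ B)
    (hl : ∀ᵐ x ∂m, x ∈ S → ENNReal.ofReal e ≤ ∫⁻ t in Ioc δ 1, h (Y t x)) :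
    m S ≤ ENNReal.ofReal (K * ((1 - n / q)⁻¹ / e) ^ q) * ∫⁻ x in B, h x ^ q ∂m := by
  have hq0 : 0 < q := by linarith
  have h1 := morrey_core hS hBm hSf hq1 hq hδ hK hh hY hd hB hl
  by_cases hS0 : m S = 0
  · rw [hS0]; exact zero_le
  set I := ∫⁻ x in B, h x ^ q ∂m with hI
  have hnq : 0 < 1 - n / q := by
    have : n / q < 1 := by rw [div_lt_one hq0]; exact hq
    linarith
  have hA0 : 0 ≤ (1 - n / q)⁻¹ := by positivity
  -- divide by `m S ^ (1 - 1/q)`
  have h2 : ENNReal.ofReal e * m S ^ q⁻¹ ≤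
      ENNReal.ofReal (K ^ q⁻¹ * (1 - n / q)⁻¹) * I ^ q⁻¹ := by
    have e1 : m S = m S ^ q⁻¹ * m S ^ (1 - q⁻¹) := by
      rw [← ENNReal.rpow_add _ _ hS0 hSf]
      simp
    have hp0 : m S ^ (1 - q⁻¹) ≠ 0 := by
      rw [Ne, ENNReal.rpow_eq_zero_iff]
      push Not
      exact ⟨fun h => absurd h hS0, fun h => absurd h hSf⟩
    have hpt : m S ^ (1 - q⁻¹) ≠ ∞ := by
      refine ENNReal.rpow_ne_top_of_nonneg ?_ hSf
      have : q⁻¹ ≤ 1 := inv_le_one_of_one_le₀ hq1.le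
      linarith
    rw [e1, ← mul_assoc] at h1
    have h3 := h1
    have e2 : (m S ^ q⁻¹ * m S ^ (1 - q⁻¹)) ^ (1 - q⁻¹) = m S ^ (1 - q⁻¹) := by rw [← e1]
    rw [e2] at h3
    exact (ENNReal.mul_le_mul_iff_left hp0 hpt).1 h3
  have h3 := ENNReal.rpow_le_rpow h2 hq0.le
  rw [ENNReal.mul_rpow_of_nonneg _ _ hq0.le, ENNReal.mul_rpow_of_nonneg _ _ hq0.le,
    ← ENNReal.rpow_mul, ← ENNReal.rpow_mul, inv_mul_cancel₀ hq0.ne', ENNReal.rpow_one,
    ENNReal.rpow_one, ENNReal.ofReal_rpow_of_nonneg he.le hq0.le,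
    ENNReal.ofReal_rpow_of_nonneg (by positivity) hq0.le] at h3
  have e3 : (K ^ q⁻¹ * (1 - n / q)⁻¹) ^ q = K * ((1 - n / q)⁻¹) ^ q := by
    rw [Real.mul_rpow (by positivity) hA0, ← Real.rpow_mul hK, inv_mul_cancel₀ hq0.ne',
      Real.rpow_one]
  rw [e3] at h3
  have he' : 0 < e ^ q := Real.rpow_pos_of_pos he q
  have e4 : K * ((1 - n / q)⁻¹ / e) ^ q = (e ^ q)⁻¹ * (K * ((1 - n / q)⁻¹) ^ q) := by
    rw [Real.div_rpow hA0 he.le]
    field_simp
  rw [e4, ENNReal.ofReal_mul (by positivity), mul_assoc, ENNReal.ofReal_inv_of_pos he']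
  rw [mul_comm, ← div_eq_mul_inv]
  rw [ENNReal.le_div_iff_mul_le (Or.inl (by simpa using he')) (Or.inl ENNReal.ofReal_ne_top)]
  rwa [mul_comm]

end

variable {M : Type*} [MetricSpace M] [MeasurableSpace M] [BorelSpace M] {m : Measure M}

/-- Contraction maps towards `p` (the limit flow of the centre `p`, reference time `1`, with the
parameter `s₀`). -/
structure Contr (m : Measure M) (p : M) (s₀ R n K : ℝ) (Y : ℝ → M → M) : Prop where
  meas : Measurable (fun z : ℝ × M => Y z.1 z.2)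
  rad : ∀ t ∈ Ioc (0:ℝ) 1, ∀ᵐ x ∂m, dist p x < R →
    dist p (Y t x) = (t + s₀) / (1 + s₀) * dist p x ∧
    dist (Y t x) x = (1 - t) / (1 + s₀) * dist p x
  dens : ∀ t ∈ Ioc (0:ℝ) 1, ∀ A : Set M, MeasurableSet A →
    m {x | dist p x < R ∧ Y t x ∈ A} ≤ ENNReal.ofReal (K * t ^ (-n)) * m A

/-- `G` is an upper gradient of `b` along the curves of `Y`. -/
def UG (m : Measure M) (p : M) (s₀ R : ℝ) (Y : ℝ → M → M) (b : M → ℝ) (G : M → ℝ) : Prop :=
  ∀ t ∈ Ioc (0:ℝ) 1, ∀ᵐ x ∂m, dist p x < R →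
    ENNReal.ofReal |b x - b (Y t x)| ≤
      ENNReal.ofReal (dist p x / (1 + s₀)) * ∫⁻ τ in Ioc t 1, ENNReal.ofReal (G (Y τ x))

/-- The Morrey estimate, for one value of `s₀`. -/
theorem morrey_s₀ {p : M} {s₀ R n K q c η R' L δ : ℝ} {Y : ℝ → M → M} (hs₀ : 0 < s₀)
    (hC : Contr m p s₀ R n K Y) (hK : 0 ≤ K)
    {b G : M → ℝ} (hb : ∀ x, |b x - b p| ≤ L * dist p x) (hbm : Measurable b) (hG : Measurable G)
    (hU : UG m p s₀ R Y b G)
    (hR' : 0 < R') (hRR : R' ≤ R) (hf : m (Metric.ball p R') ≠ ∞) (hq1 : 1 < q) (hq : n < q)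
    (hc : 0 ≤ c) (hL : 0 ≤ L) (hδ : 0 < δ) (hδ1 : δ ≤ 1) (hη : L * ((δ + s₀) / (1 + s₀)) < η) :
    m {x | dist p x < R' ∧ c * dist p x + η * R' < |b x - b p|} ≤
      ENNReal.ofReal (K * ((1 - n / q)⁻¹ / (η - L * ((δ + s₀) / (1 + s₀)))) ^ q) *
        ∫⁻ x in Metric.ball p R', (ENNReal.ofReal (G x - c)) ^ q ∂m := by
  have hdm : Measurable fun x => dist p x := (continuous_const.dist continuous_id).measurable
  set S := {x | dist p x < R' ∧ c * dist p x + η * R' < |b x - b p|} with hS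
  have hSm : MeasurableSet S := by
    refine MeasurableSet.inter (measurableSet_lt hdm measurable_const) ?_
    exact measurableSet_lt ((hdm.const_mul c).add_const _) (hbm.sub_const _).abs
  have hSB : S ⊆ Metric.ball p R' := by
    rintro x ⟨hx, -⟩
    rwa [Metric.mem_ball, dist_comm]
  have hSf : m S ≠ ∞ := ne_top_of_le_ne_top hf (measure_mono hSB)
  have h1s : 0 < 1 + s₀ := by linarith
  refine morrey_cheb (h := fun x => ENNReal.ofReal (G x - c)) (δ := δ) hSm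
    Metric.isOpen_ball.measurableSet hSf hq1 hq hδ hK (by linarith) ?_ hC.meas ?_ ?_ ?_
  · exact ENNReal.measurable_ofReal.comp (hG.sub_const c)
  · intro t ht A hA
    refine le_trans (measure_mono ?_) (hC.dens t ⟨hδ.trans ht.1, ht.2⟩ A hA)
    rintro x ⟨hx, hxA⟩
    exact ⟨hx.1.trans_le hRR, hxA⟩
  · intro t ht
    filter_upwards [hC.rad t ⟨hδ.trans ht.1, ht.2⟩] with x hx hxS
    rw [Metric.mem_ball, dist_comm, (hx (hxS.1.trans_le hRR)).1]
    have h1 : (t + s₀) / (1 + s₀) ≤ 1 := by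
      rw [div_le_one h1s]
      linarith [ht.2]
    calc (t + s₀) / (1 + s₀) * dist p x ≤ 1 * dist p x := by gcongr
      _ < R' := by rw [one_mul]; exact hxS.1
  · filter_upwards [hC.rad δ ⟨hδ, hδ1⟩, hU δ ⟨hδ, hδ1⟩] with x hx hxU hxS
    have hxR : dist p x < R := hxS.1.trans_le hRR
    obtain ⟨r1, -⟩ := hx hxR
    have hu := hxU hxR
    have hd0 : 0 ≤ dist p x := dist_nonneg
    set J := ∫⁻ t in Ioc δ 1, ENNReal.ofReal (G (Y t x) - c) with hJ
    have g1 : ∫⁻ τ in Ioc δ 1, ENNReal.ofReal (G (Y τ x)) ≤ ENNReal.ofReal c + J := by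
      calc ∫⁻ τ in Ioc δ 1, ENNReal.ofReal (G (Y τ x))
          ≤ ∫⁻ τ in Ioc δ 1, (ENNReal.ofReal c + ENNReal.ofReal (G (Y τ x) - c)) := by
            refine lintegral_mono fun τ => ?_
            calc ENNReal.ofReal (G (Y τ x)) = ENNReal.ofReal (c + (G (Y τ x) - c)) := by
                  congr 1; ring
              _ ≤ _ := ENNReal.ofReal_add_le
        _ = ENNReal.ofReal c * volume (Ioc δ 1) + J := by
            rw [lintegral_add_left measurable_const, setLIntegral_const]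
        _ ≤ ENNReal.ofReal c * 1 + J := by
            gcongr
            rw [Real.volume_Ioc]
            calc ENNReal.ofReal (1 - δ) ≤ ENNReal.ofReal 1 := ENNReal.ofReal_le_ofReal (by linarith)
              _ = 1 := ENNReal.ofReal_one
        _ = _ := by rw [mul_one]
    by_cases hJt : J = ∞
    · rw [hJt]; exact le_top
    have g2 : |b x - b (Y δ x)| ≤ dist p x / (1 + s₀) * (c + J.toReal) := by
      have h3 : ENNReal.ofReal |b x - b (Y δ x)| ≤
          ENNReal.ofReal (dist p x / (1 + s₀) * (c + J.toReal)) := by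
        refine hu.trans ?_
        rw [ENNReal.ofReal_mul (by positivity)]
        gcongr
        refine g1.trans (le_of_eq ?_)
        rw [ENNReal.ofReal_add hc ENNReal.toReal_nonneg, ENNReal.ofReal_toReal hJt]
      exact (ENNReal.ofReal_le_ofReal_iff (by positivity)).1 h3
    have g3 : |b (Y δ x) - b p| ≤ L * ((δ + s₀) / (1 + s₀)) * R' := by
      refine (hb (Y δ x)).trans ?_
      rw [r1]
      calc L * ((δ + s₀) / (1 + s₀) * dist p x) = L * ((δ + s₀) / (1 + s₀)) * dist p x := by ring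
        _ ≤ L * ((δ + s₀) / (1 + s₀)) * R' := by
            gcongr
            exact hxS.1.le
    have g4 : |b x - b p| ≤ |b x - b (Y δ x)| + |b (Y δ x) - b p| := by
      have : b x - b p = (b x - b (Y δ x)) + (b (Y δ x) - b p) := by ring
      rw [this]; exact abs_add_le _ _
    have g5 := hxS.2
    have g6 : dist p x / (1 + s₀) * (c + J.toReal) ≤ c * dist p x + R' * J.toReal := by
      have : dist p x / (1 + s₀) ≤ dist p x := div_le_self hd0 (by linarith)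
      have h2 : dist p x / (1 + s₀) * c ≤ dist p x * c := by gcongr
      have h3 : dist p x / (1 + s₀) * J.toReal ≤ R' * J.toReal :=
        mul_le_mul_of_nonneg_right (this.trans hxS.1.le) ENNReal.toReal_nonneg
      nlinarith
    have g7 : (η - L * ((δ + s₀) / (1 + s₀))) * R' ≤ J.toReal * R' := by nlinarith
    have g8 : η - L * ((δ + s₀) / (1 + s₀)) ≤ J.toReal := le_of_mul_le_mul_right g7 hR'
    calc ENNReal.ofReal (η - L * ((δ + s₀) / (1 + s₀))) ≤ ENNReal.ofReal J.toReal :=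
          ENNReal.ofReal_le_ofReal g8
      _ = J := ENNReal.ofReal_toReal hJt

/-- **D2, the Morrey estimate**: for every `p`. -/
theorem morrey {p : M} {R n K q c η R' L : ℝ} (hK : 0 ≤ K)
    {b G : M → ℝ} (hb : ∀ x, |b x - b p| ≤ L * dist p x) (hbm : Measurable b) (hG : Measurable G)
    (hY : ∀ ε > 0, ∃ s₀ : ℝ, 0 < s₀ ∧ s₀ ≤ ε ∧ ∃ Y, Contr m p s₀ R n K Y ∧ UG m p s₀ R Y b G)
    (hR' : 0 < R') (hRR : R' ≤ R) (hf : m (Metric.ball p R') ≠ ∞) (hq1 : 1 < q) (hq : n < q)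
    (hc : 0 ≤ c) (hL : 0 ≤ L) (hη : 0 < η) :
    m {x | dist p x < R' ∧ c * dist p x + η * R' < |b x - b p|} ≤
      ENNReal.ofReal (K * ((1 - n / q)⁻¹ / η) ^ q) *
        ∫⁻ x in Metric.ball p R', (ENNReal.ofReal (G x - c)) ^ q ∂m := by
  set I := ∫⁻ x in Metric.ball p R', (ENNReal.ofReal (G x - c)) ^ q ∂m with hI
  -- the estimate with `η - ε` for all small `ε`
  have h1 : ∀ ε ∈ Ioo (0:ℝ) η, m {x | dist p x < R' ∧ c * dist p x + η * R' < |b x - b p|} ≤
      ENNReal.ofReal (K * ((1 - n / q)⁻¹ / (η - ε)) ^ q) * I := by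
    intro ε hε
    obtain ⟨s₀, h0, h1, Y, hC, hU⟩ := hY (min 1 (ε / (2 * (L + 1)))) (by
      have := hε.1; positivity)
    have hs1 : s₀ ≤ 1 := h1.trans (min_le_left _ _)
    have hs2 : s₀ ≤ ε / (2 * (L + 1)) := h1.trans (min_le_right _ _)
    have hs3 : s₀ * (2 * (L + 1)) ≤ ε := by
      rwa [le_div_iff₀ (by positivity)] at hs2
    have key : L * ((s₀ + s₀) / (1 + s₀)) ≤ ε := by
      have h2 : (s₀ + s₀) / (1 + s₀) ≤ s₀ + s₀ := div_le_self (by linarith) (by linarith)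
      calc L * ((s₀ + s₀) / (1 + s₀)) ≤ L * (s₀ + s₀) := by gcongr
        _ ≤ ε := by nlinarith
    have h3 := morrey_s₀ (δ := s₀) h0 hC hK hb hbm hG hU hR' hRR hf hq1 hq hc hL h0 hs1
      (lt_of_le_of_lt key hε.2)
    refine h3.trans ?_
    gcongr ENNReal.ofReal ?_ * _
    have hq0 : 0 < q := by linarith
    have hnq : 0 < 1 - n / q := by
      have : n / q < 1 := by rw [div_lt_one hq0]; exact hq
      linarith
    have h5 : 0 < η - ε := by linarith [hε.2]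
    have h6 : 0 < η - L * ((s₀ + s₀) / (1 + s₀)) := by linarith
    have h7 : 0 ≤ (1 - n / q)⁻¹ / (η - L * ((s₀ + s₀) / (1 + s₀))) := by positivity
    gcongr
  by_cases hIt : I = ∞
  · by_cases hK0 : K = 0
    · have h2 := h1 (η / 2) ⟨by linarith, by linarith⟩
      rw [hK0, zero_mul, ENNReal.ofReal_zero, zero_mul] at h2 ⊢
      exact h2
    · have hKp : 0 < K := lt_of_le_of_ne hK (Ne.symm hK0)
      have hq0 : 0 < q := by linarith
      have hnq : 0 < 1 - n / q := by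
        have : n / q < 1 := by rw [div_lt_one hq0]; exact hq
        linarith
      rw [hIt, ENNReal.mul_top]
      · exact le_top
      · rw [Ne, ENNReal.ofReal_eq_zero, not_le]
        positivity
  -- pass to the limit
  have h2 : Tendsto (fun ε : ℝ => ENNReal.ofReal (K * ((1 - n / q)⁻¹ / (η - ε)) ^ q) * I)
      (𝓝[>] 0) (𝓝 (ENNReal.ofReal (K * ((1 - n / q)⁻¹ / (η - 0)) ^ q) * I)) := by
    refine ENNReal.Tendsto.mul_const ?_ (Or.inr hIt)
    refine (ENNReal.continuous_ofReal.tendsto _).comp ?_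
    have hc : ContinuousAt (fun ε : ℝ => K * ((1 - n / q)⁻¹ / (η - ε)) ^ q) 0 := by
      refine continuousAt_const.mul (ContinuousAt.rpow_const ?_ (Or.inr (by linarith)))
      exact continuousAt_const.div (continuousAt_const.sub continuousAt_id) (by simpa using hη.ne')
    exact hc.tendsto.mono_left nhdsWithin_le_nhds
  rw [sub_zero] at h2
  refine ge_of_tendsto h2 ?_
  have : Ioo (0:ℝ) η ∈ 𝓝[>] (0:ℝ) := Ioo_mem_nhdsGT hη
  filter_upwards [this] with ε hε using h1 ε hε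

end Vale.Agent.P233.H276
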